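import Vale.Agent.P088.R2.H551.E.Dens
import Vale.Agent.P088.R2.H960.W.Ims

/-!
# P088, stage 3: the gain of the unstarred derivatives

`∫ θ ω |Y u|² = ∫ θ (ω (2 F - Λ W + v) + Λ ω / 2 - 2 Γ(W, ω)) u² - ∫ θ ω u P u` and
`∫ θ ω |X u|² = ∫ θ ω |D u|² + ∫ θ (ω (F + Λ W) + Γ(W, ω)) u²`.  With the squares `(P₂ a)²`,
`(P₁ b)²` and the margins of `|X a|²`, `|X b|²`, `a²`, `b²` in a lower bound of `T` they give the
four gains `|X a|²`, `|Y a|²` (second slot), `|X b|²` (second slot), `|Y b|²` (first slot).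
-/

open MeasureTheory Set Filter
open scoped ContDiff Topology

noncomputable section

namespace Vale.Agent.P088.R2.H935.Gn

open Vale.Agent.P088.R2.H961.GW Vale.Agent.P088.R2.H960.W Vale.Agent.P088.R2.H644
  Vale.Agent.P088.R2.H551.E

variable {E ι κ : Type*} [NormedAddCommGroup E] [NormedSpace ℝ E] [Fintype ι] [Fintype κ]

/-- `s(X a, X a)`. -/
def sXX (σ : Sl E ι) (W a : E → ℝ) (z : E) : ℝ :=
  ∑ i, ∑ j, σ.s i j z * XX σ W a i z * XX σ W a j z

/-- The zero order coefficient of `∫ ω |Y u|²`. -/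
def gY (σ : Sl E ι) (om v W : E → ℝ) (z : E) : ℝ :=
  om z * (2 * σ.F W z - σ.Λ W z + v z) + 1 / 2 * σ.Λ om z - 2 * σ.Γ W om z

/-- The zero order coefficient of `∫ ω |X u|²`. -/
def gX (σ : Sl E ι) (om W : E → ℝ) (z : E) : ℝ :=
  om z * (σ.F W z + σ.Λ W z) + σ.Γ W om z

section pw

variable {σ : Sl E ι} {U : Set E} {θ : E → ℝ} {v om W f g h u a b : E → ℝ} {z : E}

theorem sYY_eq (ok : σ.Ok U θ) (W u : E → ℝ) (z : E) :
    sYY σ W u z = σ.Γ u u z + 2 * u z * σ.Γ W u z + u z ^ 2 * σ.F W z := by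
  have e : sYY σ W u z = σ.Γ u u z + u z * σ.Γ u W z + u z * σ.Γ W u z + u z ^ 2 * σ.F W z := by
    unfold sYY Sl.F Sl.Γ YY
    simp only [Finset.mul_sum, ← Finset.sum_add_distrib]
    exact Finset.sum_congr rfl fun i _ => Finset.sum_congr rfl fun j _ => by ring
  rw [e, G_comm ok u W]
  ring

theorem sXX_eq (ok : σ.Ok U θ) (W u : E → ℝ) (z : E) :
    sXX σ W u z = σ.Γ u u z - 2 * u z * σ.Γ W u z + u z ^ 2 * σ.F W z := by
  have e : sXX σ W u z = σ.Γ u u z + (-(u z * σ.Γ u W z)) + (-(u z * σ.Γ W u z)) +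
      u z ^ 2 * σ.F W z := by
    unfold sXX Sl.F Sl.Γ XX
    simp only [Finset.mul_sum, ← Finset.sum_add_distrib, ← Finset.sum_neg_distrib]
    exact Finset.sum_congr rfl fun i _ => Finset.sum_congr rfl fun j _ => by ring
  rw [e, G_comm ok u W]
  ring

theorem tsXX (ok : σ.Ok U θ) (hW : Sm U W) (hu : Te U u) : Te U (sXX σ W u) :=
  Te.sum ok.op _ fun i _ => Te.sum ok.op _ fun j _ =>
    ((tX ok hW hu i).mul_left ok.op (ok.ss i j)).mul_right ok.op (tX ok hW hu j).sm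

theorem sgY (ok : σ.Ok U θ) (hom : Sm U om) (hv : Sm U v) (hW : Sm U W) :
    Sm U (gY σ om v W) :=
  ((hom.mul (((contDiffOn_const.mul (ok.sF hW)).sub (ok.sL hW)).add hv)).add
    (contDiffOn_const.mul (ok.sL hom))).sub (contDiffOn_const.mul (ok.sG hW hom))

theorem sgX (ok : σ.Ok U θ) (hom : Sm U om) (hW : Sm U W) : Sm U (gX σ om W) :=
  (hom.mul ((ok.sF hW).add (ok.sL hW))).add (ok.sG hW hom)

/-- Constant weights. -/
theorem G_const (σ : Sl E ι) (f : E → ℝ) (c : ℝ) (z : E) : σ.Γ f (fun _ => c) z = 0 := by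
  unfold Sl.Γ
  simp [D_const]

theorem gX_const (σ : Sl E ι) (W : E → ℝ) (c : ℝ) (z : E) :
    gX σ (fun _ => c) W z = c * (σ.F W z + σ.Λ W z) := by
  unfold gX
  rw [G_const σ]
  ring

end pw

variable [MeasureSpace E] [FiniteDimensional ℝ E] [BorelSpace E]
  [(volume : Measure E).IsAddHaarMeasure]

section integral

variable {σ : Sl E ι} {τ : Sl E κ} {U : Set E} {θ : E → ℝ} {v v₁ v₂ om om₁ om₂ del₁ del₂ W u a b :
  E → ℝ}

/-- The integration by parts used three times. -/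
theorem In_B (ok : σ.Ok U θ) {f h : E → ℝ} (hf : Sm U f) (hh : Te U h) :
    In U θ (fun z => σ.Λ f z * h z + σ.Γ f h z) = 0 := by
  have hU := ok.op
  rw [In_add hU ok.ts (hh.mul_left hU (ok.sL hf)) (ok.tG hf hh), In_L ok hf hh]
  ring

/-- **The identity for `|Y u|²`.** -/
theorem Y_id (ok : σ.Ok U θ) (hom : Sm U om) (hv : Sm U v) (hW : Sm U W) (hu : Te U u) :
    In U θ (fun z => om z * sYY σ W u z) = In U θ (fun z => gY σ om v W z * u z ^ 2) -
      In U θ (fun z => om z * u z * σ.P v W u z) := by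
  have hU := ok.op
  have su := hu.sm
  have tu : Te U fun z => om z * u z := hu.mul_left hU hom
  have tu2 : Te U fun z => u z ^ 2 := hu.sq hU
  have tou2 : Te U fun z => om z * u z ^ 2 := tu2.mul_left hU hom
  have b1 := In_B ok su tu
  have b2 := In_B ok hW tou2
  have b3 := In_B ok hom tu2
  have t1 : Te U fun z => σ.Λ u z * (om z * u z) + σ.Γ u (fun z => om z * u z) z :=
    (tu.mul_left hU (ok.sL su)).add hU (ok.tG su tu)
  have t2 : Te U fun z => σ.Λ W z * (om z * u z ^ 2) + σ.Γ W (fun z => om z * u z ^ 2) z :=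
    (tou2.mul_left hU (ok.sL hW)).add hU (ok.tG hW tou2)
  have t3 : Te U fun z => σ.Λ om z * u z ^ 2 + σ.Γ om (fun z => u z ^ 2) z :=
    (tu2.mul_left hU (ok.sL hom)).add hU (ok.tG hom tu2)
  have tY : Te U fun z => om z * sYY σ W u z := (tsYY ok hW hu).mul_left hU hom
  have tg : Te U fun z => gY σ om v W z * u z ^ 2 := tu2.mul_left hU (sgY ok hom hv hW)
  have tp : Te U fun z => om z * u z * σ.P v W u z := tu.mul_right hU (ok.sP hv hW su)
  have e : In U θ (fun z => om z * sYY σ W u z - gY σ om v W z * u z ^ 2 +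
      om z * u z * σ.P v W u z) = In U θ (fun z =>
      (σ.Λ u z * (om z * u z) + σ.Γ u (fun z => om z * u z) z) +
      2 * (σ.Λ W z * (om z * u z ^ 2) + σ.Γ W (fun z => om z * u z ^ 2) z) +
      (-(1 / 2)) * (σ.Λ om z * u z ^ 2 + σ.Γ om (fun z => u z ^ 2) z)) := by
    refine In_congr hU fun z hz => ?_
    rw [sYY_eq ok W u z, G_mul ok u hom su hz, G_mul ok W hom tu2.sm hz, G_sq ok W su hz,
      G_sq ok om su hz, G_comm ok om u]
    unfold gY Sl.P Sl.K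
    ring
  rw [In_add hU ok.ts (tY.sub hU tg) tp, In_sub hU ok.ts tY tg,
    In_add hU ok.ts (t1.add hU (t2.cmul hU 2)) (t3.cmul hU _), In_add hU ok.ts t1 (t2.cmul hU 2),
    In_cmul, In_cmul, b1, b2, b3] at e
  linarith

/-- **The identity for `|X u|²`.** -/
theorem X_id (ok : σ.Ok U θ) (hom : Sm U om) (hW : Sm U W) (hu : Te U u) :
    In U θ (fun z => om z * sXX σ W u z) = In U θ (fun z => gX σ om W z * u z ^ 2) +
      In U θ (fun z => om z * σ.Γ u u z) := by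
  have hU := ok.op
  have su := hu.sm
  have tu2 : Te U fun z => u z ^ 2 := hu.sq hU
  have tou2 : Te U fun z => om z * u z ^ 2 := tu2.mul_left hU hom
  have b2 := In_B ok hW tou2
  have t2 : Te U fun z => σ.Λ W z * (om z * u z ^ 2) + σ.Γ W (fun z => om z * u z ^ 2) z :=
    (tou2.mul_left hU (ok.sL hW)).add hU (ok.tG hW tou2)
  have tX : Te U fun z => om z * sXX σ W u z := (tsXX ok hW hu).mul_left hU hom
  have tg : Te U fun z => gX σ om W z * u z ^ 2 := tu2.mul_left hU (sgX ok hom hW)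
  have td : Te U fun z => om z * σ.Γ u u z := (ok.tG su hu).mul_left hU hom
  have e : In U θ (fun z => om z * sXX σ W u z - gX σ om W z * u z ^ 2 - om z * σ.Γ u u z) =
      In U θ (fun z =>
        (-1) * (σ.Λ W z * (om z * u z ^ 2) + σ.Γ W (fun z => om z * u z ^ 2) z)) := by
    refine In_congr hU fun z hz => ?_
    rw [sXX_eq ok W u z, G_mul ok W hom tu2.sm hz, G_sq ok W su hz]
    unfold gX
    ring
  rw [In_sub hU ok.ts (tX.sub hU tg) td, In_sub hU ok.ts tX tg, In_cmul, b2] at e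
  linarith

/-- The margin of `|X u|²` gives a margin of `u²`. -/
theorem X_ge (ok : σ.Ok U θ) (p : Psd σ U) (hom : Sm U om) (om0 : ∀ z ∈ U, 0 ≤ om z)
    (hW : Sm U W) (hu : Te U u) :
    In U θ (fun z => gX σ om W z * u z ^ 2) ≤ In U θ (fun z => om z * sXX σ W u z) := by
  rw [X_id ok hom hW hu]
  have := In_nonneg (f := fun z => om z * σ.Γ u u z) ok.op ok.tp fun z hz =>
    mul_nonneg (om0 z hz) (p.G u hz)
  linarith

/-- The gain of `|Y u|²` from the square `(P u)²` and zero order terms. -/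
theorem Y_le (ok : σ.Ok U θ) (hom : Sm U om) (hv : Sm U v) (hW : Sm U W) (hu : Te U u) {K : ℝ}
    (hK : 0 < K) :
    In U θ (fun z => om z * sYY σ W u z) ≤ In U θ (fun z => K * σ.P v W u z ^ 2 +
      (gY σ om v W z + om z ^ 2 / (4 * K)) * u z ^ 2) := by
  have hU := ok.op
  have tu2 : Te U fun z => u z ^ 2 := hu.sq hU
  have tp : Te U fun z => om z * u z * σ.P v W u z :=
    (hu.mul_left hU hom).mul_right hU (ok.sP hv hW hu.sm)
  have tg : Te U fun z => gY σ om v W z * u z ^ 2 := tu2.mul_left hU (sgY ok hom hv hW)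
  rw [Y_id ok hom hv hW hu, ← In_sub hU ok.ts tg tp]
  have sc : Sm U fun z => gY σ om v W z + om z ^ 2 / (4 * K) :=
    (sgY ok hom hv hW).add ((hom.pow 2).div_const _)
  refine In_mono hU ok.tp ok.ts (tg.sub hU tp)
    ((((ok.tP hv hW hu).sq hU).cmul hU K).add hU (tu2.mul_left hU sc)) fun z hz => ?_
  have h : 0 ≤ K * (σ.P v W u z + om z * u z / (2 * K)) ^ 2 := by positivity
  have e : K * (σ.P v W u z + om z * u z / (2 * K)) ^ 2 = K * σ.P v W u z ^ 2 +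
      om z * u z * σ.P v W u z + om z ^ 2 / (4 * K) * u z ^ 2 := by
    field_simp
    ring
  rw [e] at h
  nlinarith [h]

/-- The coefficient of `u²` to be paid for the gain `ω |Y u|²` in the slot `τ`, when `δ |X u|²` of
the slot `σ` is used. -/
def gC (σ : Sl E ι) (τ : Sl E κ) (K : ℝ) (om del v W : E → ℝ) (z : E) : ℝ :=
  gY τ om v W z + om z ^ 2 / (4 * K) - gX σ del W z

omit [MeasureSpace E] [FiniteDimensional ℝ E] [BorelSpace E]
  [(volume : Measure E).IsAddHaarMeasure] in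
theorem sgC (ok : σ.Ok U θ) (ot : τ.Ok U θ) (K : ℝ) {om del v W : E → ℝ} (ho : Sm U om)
    (hd : Sm U del) (hv : Sm U v) (hW : Sm U W) : Sm U (gC σ τ K om del v W) :=
  ((sgY ot ho hv hW).add ((ho.pow 2).div_const _)).sub (sgX ok hd hW)

/-- One gain, with the costs as a density. -/
theorem one_gain (ok : σ.Ok U θ) (ot : τ.Ok U θ) (p : Psd σ U) (hom : Sm U om) {del : E → ℝ}
    (hd : Sm U del) (d0 : ∀ z ∈ U, 0 ≤ del z) (hv : Sm U v) (hW : Sm U W) (hu : Te U u) {K : ℝ}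
    (hK : 0 < K) :
    In U θ (fun z => om z * sYY τ W u z) ≤ In U θ (fun z => K * τ.P v W u z ^ 2 +
      del z * sXX σ W u z + gC σ τ K om del v W z * u z ^ 2) := by
  have hU := ok.op
  have h1 := Y_le ot hom hv hW hu hK
  have h2 := X_ge ok p hd d0 hW hu
  have tu2 : Te U fun z => u z ^ 2 := hu.sq hU
  have sc : Sm U fun z => gY τ om v W z + om z ^ 2 / (4 * K) :=
    (sgY ot hom hv hW).add ((hom.pow 2).div_const _)
  have t1 : Te U fun z => K * τ.P v W u z ^ 2 +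
      (gY τ om v W z + om z ^ 2 / (4 * K)) * u z ^ 2 :=
    (((ot.tP hv hW hu).sq hU).cmul hU K).add hU (tu2.mul_left hU sc)
  have t2 : Te U fun z => del z * sXX σ W u z := (tsXX ok hW hu).mul_left hU hd
  have t3 : Te U fun z => gX σ del W z * u z ^ 2 := tu2.mul_left hU (sgX ok hd hW)
  have e : In U θ (fun z => K * τ.P v W u z ^ 2 + del z * sXX σ W u z +
      gC σ τ K om del v W z * u z ^ 2) = In U θ (fun z => (K * τ.P v W u z ^ 2 +
      (gY τ om v W z + om z ^ 2 / (4 * K)) * u z ^ 2) + (del z * sXX σ W u z -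
        gX σ del W z * u z ^ 2)) := by
    refine In_congr hU fun z _ => ?_
    unfold gC
    ring
  rw [e, In_add hU ok.ts t1 (t2.sub hU t3), In_sub hU ok.ts t2 t3]
  linarith

/-- **The gain lemma.** `m` is any integrable density with `r` + costs `≤ m` pointwise. -/
theorem gain (ok : σ.Ok U θ) (ot : τ.Ok U θ) (p : Psd σ U) (q : Psd τ U) (hv₁ : Sm U v₁)
    (hv₂ : Sm U v₂) (hW : Sm U W) (ha : Te U a) (hb : Te U b) (ho₁ : Sm U om₁) (ho₂ : Sm U om₂)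
    (hd₁ : Sm U del₁) (hd₂ : Sm U del₂) (d₁0 : ∀ z ∈ U, 0 ≤ del₁ z) (d₂0 : ∀ z ∈ U, 0 ≤ del₂ z)
    {K : ℝ} (hK : 0 < K) {m r : E → ℝ} (im : IntegrableOn (fun z => θ z * m z) U)
    (ir : IntegrableOn (fun z => θ z * r z) U)
    (pt : ∀ z ∈ U, r z + K * (τ.P v₂ W a z ^ 2 + σ.P v₁ W b z ^ 2) + del₁ z * sXX σ W a z +
      del₂ z * sXX τ W b z + gC σ τ K om₁ del₁ v₂ W z * a z ^ 2 +
      gC τ σ K om₂ del₂ v₁ W z * b z ^ 2 ≤ m z) :
    In U θ (fun z => om₁ z * sYY τ W a z) + In U θ (fun z => om₂ z * sYY σ W b z) + In U θ r ≤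
      In U θ m := by
  have hU := ok.op
  have h1 := one_gain ok ot p ho₁ hd₁ d₁0 hv₂ hW ha hK
  have h2 := one_gain ot ok q ho₂ hd₂ d₂0 hv₁ hW hb hK
  have tA : Te U fun z => K * τ.P v₂ W a z ^ 2 + del₁ z * sXX σ W a z +
      gC σ τ K om₁ del₁ v₂ W z * a z ^ 2 :=
    ((((ot.tP hv₂ hW ha).sq hU).cmul hU K).add hU ((tsXX ok hW ha).mul_left hU hd₁)).add hU
      ((ha.sq hU).mul_left hU (sgC ok ot K ho₁ hd₁ hv₂ hW))
  have tB : Te U fun z => K * σ.P v₁ W b z ^ 2 + del₂ z * sXX τ W b z +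
      gC τ σ K om₂ del₂ v₁ W z * b z ^ 2 :=
    ((((ok.tP hv₁ hW hb).sq hU).cmul hU K).add hU ((tsXX ot hW hb).mul_left hU hd₂)).add hU
      ((hb.sq hU).mul_left hU (sgC ot ok K ho₂ hd₂ hv₁ hW))
  have iA := te_int hU ok.ts tA
  have iB := te_int hU ok.ts tB
  have i2 := ir.add iA
  have e1 := integral_add ir iA
  have e2 := integral_add i2 iB
  have h3 := setIntegral_mono_on (i2.add iB) im hU.measurableSet fun z hz => by
    have h := mul_le_mul_of_nonneg_left (pt z hz) (ok.tp z hz).le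
    simp only [Pi.add_apply]
    linarith
  simp only [Pi.add_apply] at e1 e2 h3
  unfold In at h1 h2 ⊢
  linarith

/-- `½ |x|² ≤ s(x, x) ≤ 2 |x|²`. -/
def Ell (σ : Sl E ι) (U : Set E) : Prop :=
  ∀ z ∈ U, ∀ x : ι → ℝ, 1 / 2 * ∑ i, x i ^ 2 ≤ ∑ i, ∑ j, σ.s i j z * x i * x j ∧
    ∑ i, ∑ j, σ.s i j z * x i * x j ≤ 2 * ∑ i, x i ^ 2

omit [MeasureSpace E] [FiniteDimensional ℝ E] [BorelSpace E]
  [(volume : Measure E).IsAddHaarMeasure] in
theorem Ell.psd (h : Ell σ U) : Psd σ U := fun z hz x => by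
  have h1 := (h z hz x).1
  have h2 : 0 ≤ ∑ i, x i ^ 2 := Finset.sum_nonneg fun i _ => sq_nonneg _
  linarith

omit [MeasureSpace E] [FiniteDimensional ℝ E] [BorelSpace E]
  [(volume : Measure E).IsAddHaarMeasure] in
theorem tqX (ok : σ.Ok U θ) (hW : Sm U W) (hu : Te U u) : Te U fun z => ∑ i, XX σ W u i z ^ 2 :=
  Te.sum ok.op _ fun i _ => (tX ok hW hu i).sq ok.op

omit [MeasureSpace E] [FiniteDimensional ℝ E] [BorelSpace E]
  [(volume : Measure E).IsAddHaarMeasure] in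
theorem tqY (ok : σ.Ok U θ) (hW : Sm U W) (hu : Te U u) : Te U fun z => ∑ i, YY σ W u i z ^ 2 :=
  Te.sum ok.op _ fun i _ => (tY ok hW hu i).sq ok.op

omit [MeasureSpace E] [FiniteDimensional ℝ E] [BorelSpace E]
  [(volume : Measure E).IsAddHaarMeasure] in
theorem L_const (ok : σ.Ok U θ) (c : ℝ) {z : E} (hz : z ∈ U) : σ.Λ (fun _ => c) z = 0 := by
  have h := L_cmul ok c (g := fun _ => (1 : ℝ)) contDiffOn_const hz
  have h3 := L_mul ok (g := fun _ => (1 : ℝ)) (h := fun _ => (1 : ℝ)) contDiffOn_const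
    contDiffOn_const hz
  have h4 : σ.Γ (fun _ => (1 : ℝ)) (fun _ => 1) z = 0 := G_const σ _ 1 z
  rw [h4] at h3
  simp only [mul_one, one_mul, mul_zero, add_zero] at h h3
  have h5 : σ.Λ (fun _ => (1 : ℝ)) z = 0 := by linarith
  rw [h, h5, mul_zero]

omit [MeasureSpace E] [FiniteDimensional ℝ E] [BorelSpace E]
  [(volume : Measure E).IsAddHaarMeasure] in
theorem gC_const (σ : Sl E ι) (ot : τ.Ok U θ) {K : ℝ} (hK : 0 < K) (e d : ℝ) (v W : E → ℝ) {z : E}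
    (hz : z ∈ U) : gC σ τ K (fun _ => 2 * e) (fun _ => d) v W z =
      2 * e * (2 * τ.F W z - τ.Λ W z + v z) + e ^ 2 / K - d * (σ.F W z + σ.Λ W z) := by
  unfold gC gY
  rw [gX_const, G_const, L_const ot _ hz]
  field_simp
  ring

/-- **The gain lemma, Euclidean norms, one weight.** -/
theorem gain_sum (ok : σ.Ok U θ) (ot : τ.Ok U θ) (eσ : Ell σ U) (eτ : Ell τ U) (hv₁ : Sm U v₁)
    (hv₂ : Sm U v₂) (hW : Sm U W) (ha : Te U a) (hb : Te U b) (ho : Sm U om)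
    (o0 : ∀ z ∈ U, 0 ≤ om z) (hd₁ : Sm U del₁) (hd₂ : Sm U del₂)
    (d₁0 : ∀ z ∈ U, 0 ≤ del₁ z) (d₂0 : ∀ z ∈ U, 0 ≤ del₂ z) {K : ℝ} (hK : 0 < K)
    {m m₁ m₂ n₁ n₂ : E → ℝ} (im : IntegrableOn (fun z => θ z * m z) U)
    (pt : ∀ z ∈ U, K * sqd σ τ v₁ v₂ W a b z + m₁ z * ∑ i, XX σ W a i z ^ 2 +
      m₂ z * ∑ k, XX τ W b k z ^ 2 + n₁ z * a z ^ 2 + n₂ z * b z ^ 2 ≤ m z)
    (c₁ : ∀ z ∈ U, om z + 2 * del₁ z ≤ m₁ z) (c₂ : ∀ z ∈ U, om z + 2 * del₂ z ≤ m₂ z)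
    (c₃ : ∀ z ∈ U, om z + gC σ τ K (fun z => 2 * om z) del₁ v₂ W z ≤ n₁ z)
    (c₄ : ∀ z ∈ U, om z + gC τ σ K (fun z => 2 * om z) del₂ v₁ W z ≤ n₂ z) :
    In U θ (fun z => om z * (∑ k, YY τ W a k z ^ 2 + ∑ i, YY σ W b i z ^ 2 +
      ∑ i, XX σ W a i z ^ 2 + ∑ k, XX τ W b k z ^ 2 + a z ^ 2 + b z ^ 2)) ≤ In U θ m := by
  have hU := ok.op
  have ho2 : Sm U fun z => 2 * om z := contDiffOn_const.mul ho
  have tr : Te U fun z => om z * (∑ i, XX σ W a i z ^ 2 + ∑ k, XX τ W b k z ^ 2 + a z ^ 2 +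
      b z ^ 2) := ((((tqX ok hW ha).add hU (tqX ot hW hb)).add hU (ha.sq hU)).add hU
        (hb.sq hU)).mul_left hU ho
  have g := gain ok ot eσ.psd eτ.psd hv₁ hv₂ hW ha hb ho2 ho2 hd₁ hd₂ d₁0 d₂0 hK im
    (te_int hU ok.ts tr) fun z hz => by
      have h1 := pt z hz
      have h2 := mul_le_mul_of_nonneg_left (eσ z hz fun i => XX σ W a i z).2 (d₁0 z hz)
      have h3 := mul_le_mul_of_nonneg_left (eτ z hz fun i => XX τ W b i z).2 (d₂0 z hz)
      have s1 : 0 ≤ ∑ i, XX σ W a i z ^ 2 := Finset.sum_nonneg fun i _ => sq_nonneg _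
      have s2 : 0 ≤ ∑ k, XX τ W b k z ^ 2 := Finset.sum_nonneg fun i _ => sq_nonneg _
      have h4 := mul_le_mul_of_nonneg_right (c₁ z hz) s1
      have h5 := mul_le_mul_of_nonneg_right (c₂ z hz) s2
      have h6 := mul_le_mul_of_nonneg_right (c₃ z hz) (sq_nonneg (a z))
      have h7 := mul_le_mul_of_nonneg_right (c₄ z hz) (sq_nonneg (b z))
      have h8 : 0 ≤ K * (σ.P v₁ W a z ^ 2 + τ.P v₂ W b z ^ 2) := by positivity
      have e : K * sqd σ τ v₁ v₂ W a b z = K * (τ.P v₂ W a z ^ 2 + σ.P v₁ W b z ^ 2) +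
          K * (σ.P v₁ W a z ^ 2 + τ.P v₂ W b z ^ 2) := by unfold sqd; ring
      have e1 : sXX σ W a z = ∑ i, ∑ j, σ.s i j z * XX σ W a i z * XX σ W a j z := rfl
      have e2 : sXX τ W b z = ∑ i, ∑ j, τ.s i j z * XX τ W b i z * XX τ W b j z := rfl
      rw [← e1] at h2
      rw [← e2] at h3
      linarith
  refine le_trans ?_ g
  rw [← In_add hU ok.ts ((tsYY ot hW ha).mul_left hU ho2) ((tsYY ok hW hb).mul_left hU ho2),
    ← In_add hU ok.ts (((tsYY ot hW ha).mul_left hU ho2).add hU ((tsYY ok hW hb).mul_left hU ho2))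
      tr]
  refine In_mono hU ok.tp ok.ts (((((((tqY ot hW ha).add hU (tqY ok hW hb)).add hU (tqX ok hW ha)).add hU
    (tqX ot hW hb)).add hU (ha.sq hU)).add hU (hb.sq hU)).mul_left hU ho)
    ((((tsYY ot hW ha).mul_left hU ho2).add hU ((tsYY ok hW hb).mul_left hU ho2)).add hU tr)
    fun z hz => ?_
  have h2 := mul_le_mul_of_nonneg_left (eτ z hz fun i => YY τ W a i z).1 (o0 z hz)
  have h3 := mul_le_mul_of_nonneg_left (eσ z hz fun i => YY σ W b i z).1 (o0 z hz)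
  have e1 : sYY τ W a z = ∑ i, ∑ j, τ.s i j z * YY τ W a i z * YY τ W a j z := rfl
  have e2 : sYY σ W b z = ∑ i, ∑ j, σ.s i j z * YY σ W b i z * YY σ W b j z := rfl
  rw [← e1] at h2
  rw [← e2] at h3
  linarith

/-- **The gain lemma, constant weights** `e` (gain) and `d` (part of the `|X|²`-margins). -/
theorem gain_const (ok : σ.Ok U θ) (ot : τ.Ok U θ) (eσ : Ell σ U) (eτ : Ell τ U) (hv₁ : Sm U v₁)
    (hv₂ : Sm U v₂) (hW : Sm U W) (ha : Te U a) (hb : Te U b) {e d K : ℝ} (he : 0 ≤ e)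
    (hd : 0 ≤ d) (hK : 0 < K)
    {m m₁ m₂ n₁ n₂ : E → ℝ} (im : IntegrableOn (fun z => θ z * m z) U)
    (pt : ∀ z ∈ U, K * sqd σ τ v₁ v₂ W a b z + m₁ z * ∑ i, XX σ W a i z ^ 2 +
      m₂ z * ∑ k, XX τ W b k z ^ 2 + n₁ z * a z ^ 2 + n₂ z * b z ^ 2 ≤ m z)
    (c₁ : ∀ z ∈ U, e + 2 * d ≤ m₁ z) (c₂ : ∀ z ∈ U, e + 2 * d ≤ m₂ z)
    (c₃ : ∀ z ∈ U, e + 2 * e * (2 * τ.F W z - τ.Λ W z + v₂ z) + e ^ 2 / K ≤
      n₁ z + d * (σ.F W z + σ.Λ W z))
    (c₄ : ∀ z ∈ U, e + 2 * e * (2 * σ.F W z - σ.Λ W z + v₁ z) + e ^ 2 / K ≤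
      n₂ z + d * (τ.F W z + τ.Λ W z)) :
    e * In U θ (fun z => ∑ k, YY τ W a k z ^ 2 + ∑ i, YY σ W b i z ^ 2 +
      ∑ i, XX σ W a i z ^ 2 + ∑ k, XX τ W b k z ^ 2 + a z ^ 2 + b z ^ 2) ≤ In U θ m := by
  rw [← In_cmul]
  refine gain_sum (om := fun _ => e) (del₁ := fun _ => d) (del₂ := fun _ => d) ok ot eσ eτ hv₁ hv₂
    hW ha hb contDiffOn_const (fun _ _ => he) contDiffOn_const contDiffOn_const (fun _ _ => hd)
    (fun _ _ => hd) hK im pt c₁ c₂ (fun z hz => ?_) fun z hz => ?_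
  · have h := c₃ z hz
    rw [gC_const σ ot hK e d v₂ W hz]
    linarith
  · have h := c₄ z hz
    rw [gC_const τ ok hK e d v₁ W hz]
    linarith

end integral

end Vale.Agent.P088.R2.H935.Gn
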