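import Vale.Agent.P088.R2.H935.E.Gain
import Vale.Agent.P088.R2.H551.E.Cur

/-!
# P088, stage 3: the gain lemma with a remaining zero order margin
-/

open MeasureTheory Set Filter
open scoped ContDiff Topology

noncomputable section

namespace Vale.Agent.P088.R2.H935.Gn

open Vale.Agent.P088.R2.H961.GW Vale.Agent.P088.R2.H960.W Vale.Agent.P088.R2.H644
  Vale.Agent.P088.R2.H551.E

variable {E ι κ : Type*} [NormedAddCommGroup E] [NormedSpace ℝ E] [Fintype ι] [Fintype κ]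
  [MeasureSpace E] [FiniteDimensional ℝ E] [BorelSpace E] [(volume : Measure E).IsAddHaarMeasure]
  {σ : Sl E ι} {τ : Sl E κ} {U : Set E} {θ : E → ℝ} {v₁ v₂ W a b : E → ℝ}

/-- **The gain lemma with a remaining zero order margin `w'`.** -/
theorem gain_w (ok : σ.Ok U θ) (ot : τ.Ok U θ) (eσ : Ell σ U) (eτ : Ell τ U) (hv₁ : Sm U v₁)
    (hv₂ : Sm U v₂) (hW : Sm U W) (ha : Te U a) (hb : Te U b) {e d K T : ℝ} (he : 0 ≤ e)
    (hd : 0 ≤ d) (hK : 0 < K) {k z₁ z₂ n₁ n₂ w : E → ℝ} (ck : ContinuousOn k U)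
    (cz₁ : ContinuousOn z₁ U) (cz₂ : ContinuousOn z₂ U) (cn₁ : ContinuousOn n₁ U)
    (cn₂ : ContinuousOn n₂ U) (cw : ContinuousOn w U)
    (hT : In U θ (fun z => k z * sqd σ τ v₁ v₂ W a b z + z₁ z * ∑ i, XX σ W a i z ^ 2 +
      z₂ z * ∑ k, XX τ W b k z ^ 2 + n₁ z * a z ^ 2 + n₂ z * b z ^ 2) ≤ T)
    (c₀ : ∀ z ∈ U, K ≤ k z)
    (c₁ : ∀ z ∈ U, e + 2 * d ≤ z₁ z) (c₂ : ∀ z ∈ U, e + 2 * d ≤ z₂ z)
    (c₃ : ∀ z ∈ U, w z + e + 2 * e * (2 * τ.F W z - τ.Λ W z + v₂ z) + e ^ 2 / K ≤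
      n₁ z + d * (σ.F W z + σ.Λ W z))
    (c₄ : ∀ z ∈ U, w z + e + 2 * e * (2 * σ.F W z - σ.Λ W z + v₁ z) + e ^ 2 / K ≤
      n₂ z + d * (τ.F W z + τ.Λ W z)) :
    In U θ (fun z => w z * (a z ^ 2 + b z ^ 2)) +
      e * In U θ (fun z => ∑ k, YY τ W a k z ^ 2 + ∑ i, YY σ W b i z ^ 2 +
      ∑ i, XX σ W a i z ^ 2 + ∑ k, XX τ W b k z ^ 2 + a z ^ 2 + b z ^ 2) ≤ T := by
  have hU := ok.op
  have i1 : IntegrableOn (fun z => θ z * (k z * sqd σ τ v₁ v₂ W a b z +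
      z₁ z * ∑ i, XX σ W a i z ^ 2 + z₂ z * ∑ k, XX τ W b k z ^ 2 + n₁ z * a z ^ 2 +
      n₂ z * b z ^ 2)) U := by
    have e := (((((ct_int hU ok.ts ck (tsqd ok ot hv₁ hv₂ hW ha hb)).add
      (ct_int hU ok.ts cz₁ (tqX ok hW ha))).add
      (ct_int hU ok.ts cz₂ (tqX ot hW hb))).add
      (ct_int hU ok.ts cn₁ (ha.sq hU))).add
      (ct_int hU ok.ts cn₂ (hb.sq hU)))
    refine e.congr_fun (fun z _ => ?_) hU.measurableSet
    simp only [Pi.add_apply]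
    ring
  have i2 : IntegrableOn (fun z => θ z * (w z * (a z ^ 2 + b z ^ 2))) U :=
    ct_int hU ok.ts cw ((ha.sq hU).add hU (hb.sq hU))
  have g := gain_const ok ot eσ eτ hv₁ hv₂ hW ha hb he hd hK
    (m := fun z => (k z * sqd σ τ v₁ v₂ W a b z +
      z₁ z * ∑ i, XX σ W a i z ^ 2 + z₂ z * ∑ k, XX τ W b k z ^ 2 + n₁ z * a z ^ 2 +
      n₂ z * b z ^ 2) - w z * (a z ^ 2 + b z ^ 2)) (m₁ := z₁) (m₂ := z₂)
    (n₁ := fun z => n₁ z - w z) (n₂ := fun z => n₂ z - w z)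
    ((i1.sub i2).congr_fun (fun z _ => by simp only [Pi.sub_apply]; ring) hU.measurableSet)
    (fun z hz => by
      have h := mul_le_mul_of_nonneg_right (c₀ z hz) (sqd_nonneg σ τ v₁ v₂ W a b z)
      linarith) c₁ c₂ (fun z hz => by linarith [c₃ z hz]) fun z hz => by linarith [c₄ z hz]
  have h : In U θ (fun z => (k z * sqd σ τ v₁ v₂ W a b z +
      z₁ z * ∑ i, XX σ W a i z ^ 2 + z₂ z * ∑ k, XX τ W b k z ^ 2 + n₁ z * a z ^ 2 +
      n₂ z * b z ^ 2) - w z * (a z ^ 2 + b z ^ 2)) =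
      In U θ (fun z => k z * sqd σ τ v₁ v₂ W a b z +
      z₁ z * ∑ i, XX σ W a i z ^ 2 + z₂ z * ∑ k, XX τ W b k z ^ 2 + n₁ z * a z ^ 2 +
      n₂ z * b z ^ 2) - In U θ (fun z => w z * (a z ^ 2 + b z ^ 2)) := by
    unfold In
    rw [← integral_sub i1 i2]
    exact setIntegral_congr_fun hU.measurableSet fun z _ => by simp only []; ring
  rw [h] at g
  linarith

end Vale.Agent.P088.R2.H935.Gn
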